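import Vale.Agent.P254.H876.Facts

/-!
P254, sharp profile, one variable facts (helper233, row G5).

Variable `x = h` in `(0,1)`, `a = al x = 1 / x - 1`.  `l2 x = x (1 + 1 / eta)` is the square of the
distance from the wall to the barycentre of the half line truncated Gaussian of variance `x`, and
`tt x = (1 - x) (l² - x) / l` is its third cumulant, `tt² = k x³`.
-/

namespace Vale.Agent.P254.H233

open Real Set Filter Topology MeasureTheory
open Vale.Agent.P254.H876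

theorem x_mul_al {x : ℝ} (hx : x ∈ Ioo (0 : ℝ) 1) : x * al x = 1 - x := by
  unfold al
  have := hx.1.ne'
  field_simp

theorem x_mul_one_add_al {x : ℝ} (hx : x ∈ Ioo (0 : ℝ) 1) : x * (1 + al x) = 1 := by
  rw [one_add_al]
  have := hx.1.ne'
  field_simp

theorem eta_eq (a : ℝ) : eta a = (a + HH a) / 2 := by
  unfold HH
  ring

/-! ### the square of `l` -/

/-- `l²` -/
noncomputable def l2 (x : ℝ) : ℝ := x * (1 + 1 / eta (al x))

theorem l2_eq_msq {x : ℝ} (hx : x ∈ Ioo (0 : ℝ) 1) : l2 x = m (cc (al x)) ^ 2 := by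
  rw [msq_eq (al_pos hx), ← x_eq hx]
  rfl

theorem l2_gt {x : ℝ} (hx : x ∈ Ioo (0 : ℝ) 1) : x < l2 x := by
  have h := eta_pos (al x)
  have h2 : 0 < x * (1 / eta (al x)) := mul_pos hx.1 (by positivity)
  unfold l2
  linarith

theorem l2_pos {x : ℝ} (hx : x ∈ Ioo (0 : ℝ) 1) : 0 < l2 x := hx.1.trans (l2_gt hx)

/-- `d l² / dx = 2 x (1 + eta) / (1 - x)` -/
theorem hasDerivAt_l2 {x : ℝ} (hx : x ∈ Ioo (0 : ℝ) 1) :
    HasDerivAt l2 (2 * x * (1 + eta (al x)) / (1 - x)) x := by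
  have ha := al_pos hx
  have he := (hasDerivAt_eta ha).comp x (hasDerivAt_al hx)
  have hep := eta_pos (al x)
  have h1 := (he.inv hep.ne').const_add 1
  have h := (hasDerivAt_id x).mul h1
  have e : l2 = fun y => id y * (1 + (eta ∘ al)⁻¹ y) := by
    funext y
    simp [l2]
  rw [e]
  refine h.congr_deriv ?_
  simp only [id_eq, Function.comp, Pi.inv_apply]
  have hx0 := hx.1.ne'
  have hx1 : (1 - x) ≠ 0 := by have := hx.2; linarith
  have hxa : al x = (1 - x) / x := by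
    unfold al
    field_simp
  obtain ⟨η, hη⟩ : ∃ η, η = eta (al x) := ⟨_, rfl⟩
  rw [← hη] at hep ⊢
  rw [hxa]
  have h3 : (1 + (1 - x) / x) = 1 / x := by
    field_simp
    ring
  have h4 : ((1 - x) / x + 1) = 1 / x := by
    field_simp
    ring
  rw [h3, h4]
  field_simp
  ring

/-! ### monotonicity from the left end point -/

theorem nonneg_of_deriv {f f' : ℝ → ℝ} (hf : ∀ x ∈ Ioo (0 : ℝ) 1, HasDerivAt f (f' x) x)
    (hp : ∀ x ∈ Ioo (0 : ℝ) 1, 0 ≤ f' x) (h0 : Tendsto f (𝓝[>] 0) (𝓝 0)) :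
    ∀ x ∈ Ioo (0 : ℝ) 1, 0 ≤ f x := by
  intro x hx
  have hmono : MonotoneOn f (Ioo 0 1) := by
    apply monotoneOn_of_deriv_nonneg (convex_Ioo 0 1)
    · exact fun y hy => (hf y hy).continuousAt.continuousWithinAt
    · exact fun y hy => by
        rw [interior_Ioo] at hy
        exact (hf y hy).differentiableAt.differentiableWithinAt
    · intro y hy
      rw [interior_Ioo] at hy
      rw [(hf y hy).deriv]
      exact hp y hy
  refine le_of_tendsto h0 ?_
  filter_upwards [Ioo_mem_nhdsGT hx.1] with y hy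
  exact hmono ⟨hy.1, hy.2.trans hx.2⟩ hx hy.2.le

theorem tendsto_l2_zero : Tendsto l2 (𝓝[>] 0) (𝓝 0) := by
  have h1 := tendsto_inv_eta.comp tendsto_al
  have h2 : Tendsto (fun x : ℝ => x) (𝓝[>] 0) (𝓝 0) := tendsto_nhdsWithin_of_tendsto_nhds tendsto_id
  have h3 := h2.mul (h1.const_add 1)
  rw [zero_mul] at h3
  exact h3

theorem hasDerivAt_log_one_sub {x : ℝ} (hx : x ∈ Ioo (0 : ℝ) 1) :
    HasDerivAt (fun x : ℝ => Real.log (1 - x)) (-(1 / (1 - x))) x := by
  have h : HasDerivAt (fun x : ℝ => 1 - x) (-1) x := by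
    simpa using (hasDerivAt_id x).const_sub 1
  have h1 := h.log (by have := hx.2; linarith)
  refine h1.congr_deriv ?_
  ring

theorem tendsto_log_one_sub_zero : Tendsto (fun x : ℝ => Real.log (1 - x)) (𝓝[>] 0) (𝓝 0) := by
  have h : ContinuousAt (fun x : ℝ => Real.log (1 - x)) 0 := by
    refine ContinuousAt.log (by fun_prop) (by norm_num)
  have h1 : Tendsto (fun x : ℝ => Real.log (1 - x)) (𝓝[>] 0) (𝓝 (Real.log (1 - 0))) :=
    tendsto_nhdsWithin_of_tendsto_nhds h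
  simpa using h1

/-- `-log (1 - x) ≤ l²` -/
theorem neg_log_le_l2 {x : ℝ} (hx : x ∈ Ioo (0 : ℝ) 1) : -Real.log (1 - x) ≤ l2 x := by
  have h := nonneg_of_deriv (f := fun x => l2 x + Real.log (1 - x))
    (f' := fun x => 2 * x * (1 + eta (al x)) / (1 - x) + -(1 / (1 - x)))
    (fun y hy => (hasDerivAt_l2 hy).add (hasDerivAt_log_one_sub hy)) ?_ ?_ x hx
  · linarith
  · intro y hy
    have hH := HH_pos _ (al_pos hy)
    have h1 : 0 < 1 - y := by linarith [hy.2]
    have h2 := x_mul_one_add_al hy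
    have e : 2 * y * (1 + eta (al y)) / (1 - y) + -(1 / (1 - y)) =
        (y * (1 + HH (al y))) / (1 - y) := by
      rw [eta_eq]
      field_simp
      linear_combination h2
    rw [e]
    have := hy.1
    positivity
  · have := tendsto_l2_zero.add tendsto_log_one_sub_zero
    rw [add_zero] at this
    exact this

/-- `l² ≤ -4 log (1 - x) - 3 x` -/
theorem l2_le {x : ℝ} (hx : x ∈ Ioo (0 : ℝ) 1) : l2 x ≤ -4 * Real.log (1 - x) - 3 * x := by
  have h := nonneg_of_deriv (f := fun x => -4 * Real.log (1 - x) - 3 * x - l2 x)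
    (f' := fun x => -4 * -(1 / (1 - x)) - 3 * 1 - 2 * x * (1 + eta (al x)) / (1 - x))
    (fun y hy => (((hasDerivAt_log_one_sub hy).const_mul (-4)).sub
      ((hasDerivAt_id y).const_mul 3)).sub (hasDerivAt_l2 hy)) ?_ ?_ x hx
  · linarith
  · intro y hy
    have hH := HH_lt_two _ (al_pos hy)
    have h1 : 0 < 1 - y := by linarith [hy.2]
    have h2 := x_mul_one_add_al hy
    have e : -4 * -(1 / (1 - y)) - 3 * 1 - 2 * y * (1 + eta (al y)) / (1 - y) =
        (y * (2 - HH (al y))) / (1 - y) := by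
      rw [eta_eq]
      field_simp
      linear_combination -h2
    rw [e]
    have := hy.1
    positivity
  · have h2 : Tendsto (fun x : ℝ => x) (𝓝[>] 0) (𝓝 0) :=
      tendsto_nhdsWithin_of_tendsto_nhds tendsto_id
    have := ((tendsto_log_one_sub_zero.const_mul (-4)).sub (h2.const_mul 3)).sub tendsto_l2_zero
    rw [mul_zero, mul_zero, sub_zero, sub_zero] at this
    exact this

/-! ### `eta` and `HH` at `a → 0` (`x → 1`) -/

/-- `1 / eta = l² / x - 1` -/
theorem inv_eta_eq {x : ℝ} (hx : x ∈ Ioo (0 : ℝ) 1) : 1 / eta (al x) = l2 x / x - 1 := by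
  unfold l2
  have := hx.1.ne'
  field_simp
  ring

/-- `-log (1 - x) - 1 ≤ 1 / eta` -/
theorem inv_eta_ge {x : ℝ} (hx : x ∈ Ioo (0 : ℝ) 1) :
    -Real.log (1 - x) - 1 ≤ 1 / eta (al x) := by
  rw [inv_eta_eq hx]
  have h1 := neg_log_le_l2 hx
  have h2 : l2 x ≤ l2 x / x := by
    rw [le_div_iff₀ hx.1]
    nlinarith [l2_pos hx, hx.2]
  linarith

theorem tendsto_neg_log_one_sub : Tendsto (fun x : ℝ => -Real.log (1 - x)) (𝓝[<] 1) atTop := by
  refine tendsto_neg_atBot_atTop.comp (Real.tendsto_log_nhdsGT_zero.comp ?_)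
  refine tendsto_nhdsWithin_iff.2 ⟨?_, ?_⟩
  · have h : Tendsto (fun x : ℝ => 1 - x) (𝓝 1) (𝓝 (1 - 1)) := tendsto_const_nhds.sub tendsto_id
    rw [sub_self] at h
    exact tendsto_nhdsWithin_of_tendsto_nhds h
  · filter_upwards [self_mem_nhdsWithin] with x hx
    simpa using hx

theorem tendsto_eta_one : Tendsto (fun x => eta (al x)) (𝓝[<] 1) (𝓝 0) := by
  have h1 : Tendsto (fun x => 1 / eta (al x)) (𝓝[<] 1) atTop := by
    refine tendsto_atTop_mono' (𝓝[<] 1) ?_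
      (tendsto_atTop_add_const_right (𝓝[<] (1 : ℝ)) (-1) tendsto_neg_log_one_sub)
    filter_upwards [Ioo_mem_nhdsLT (show (0 : ℝ) < 1 by norm_num)] with x hx
    have := inv_eta_ge hx
    linarith
  have h2 := tendsto_inv_atTop_zero.comp h1
  refine h2.congr fun x => ?_
  simp

theorem tendsto_al_one : Tendsto al (𝓝[<] 1) (𝓝[>] 0) := by
  refine tendsto_nhdsWithin_iff.2 ⟨?_, ?_⟩
  · have h : ContinuousAt al 1 := by
      unfold al
      exact ContinuousAt.sub (ContinuousAt.div continuousAt_const continuousAt_id (by norm_num))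
        continuousAt_const
    have h2 : al 1 = 0 := by
      unfold al
      norm_num
    have h3 : Tendsto al (𝓝 1) (𝓝 0) := by
      rw [← h2]
      exact h
    exact tendsto_nhdsWithin_of_tendsto_nhds h3
  · filter_upwards [Ioo_mem_nhdsLT (show (0 : ℝ) < 1 by norm_num)] with x hx
    exact al_pos hx

theorem tendsto_HH_one : Tendsto (fun x => HH (al x)) (𝓝[<] 1) (𝓝 0) := by
  have h1 := tendsto_eta_one.const_mul 2
  have h2 := h1.sub (tendsto_nhds_of_tendsto_nhdsWithin tendsto_al_one)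
  rw [mul_zero, sub_zero] at h2
  exact h2

/-- the inverse change of variables -/
theorem al_inv {a : ℝ} (ha : 0 < a) : al (1 / (1 + a)) = a ∧ 1 / (1 + a) ∈ Ioo (0 : ℝ) 1 := by
  refine ⟨?_, by positivity, ?_⟩
  · unfold al
    field_simp
    ring
  · rw [div_lt_one (by linarith)]
    linarith

theorem tendsto_HH_zero : Tendsto HH (𝓝[>] 0) (𝓝 0) := by
  have h : Tendsto (fun a : ℝ => 1 / (1 + a)) (𝓝[>] 0) (𝓝[<] 1) := by
    refine tendsto_nhdsWithin_iff.2 ⟨?_, ?_⟩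
    · have h1 : ContinuousAt (fun a : ℝ => 1 / (1 + a)) 0 := by
        refine ContinuousAt.div continuousAt_const (by fun_prop) (by norm_num)
      have h3 : Tendsto (fun a : ℝ => 1 / (1 + a)) (𝓝 0) (𝓝 (1 / (1 + 0))) := h1
      rw [add_zero, div_one] at h3
      exact tendsto_nhdsWithin_of_tendsto_nhds h3
    · filter_upwards [self_mem_nhdsWithin] with a ha
      exact (al_inv ha).2.2
  refine (tendsto_HH_one.comp h).congr' ?_
  filter_upwards [self_mem_nhdsWithin] with a ha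
  simp only [Function.comp]
  rw [(al_inv ha).1]

/-! ### `l² ~ 2 log (1 / (1 - x))` -/

/-- `|l² + 2 log (1 - x)| ≤ ε (-log (1 - x)) + C` near `x = 1` -/
theorem l2_asymp {ε : ℝ} (hε : 0 < ε) : ∃ x1 ∈ Ioo (0 : ℝ) 1, ∃ C : ℝ, ∀ x ∈ Ico x1 1,
    |l2 x - 2 * -Real.log (1 - x)| ≤ ε * -Real.log (1 - x) + C := by
  have hlim : Tendsto (fun x => 2 * x * (1 + eta (al x)) - 2) (𝓝[<] 1) (𝓝 0) := by
    have h1 : Tendsto (fun x : ℝ => x) (𝓝[<] 1) (𝓝 1) :=
      tendsto_nhdsWithin_of_tendsto_nhds tendsto_id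
    have h2 := ((h1.const_mul 2).mul (tendsto_eta_one.const_add 1)).sub_const 2
    have e : (2 : ℝ) * 1 * (1 + 0) - 2 = 0 := by norm_num
    rw [e] at h2
    exact h2
  have hev := hlim.eventually (Metric.ball_mem_nhds (0 : ℝ) hε)
  obtain ⟨b, hb, hb2⟩ := (mem_nhdsLT_iff_exists_Ioo_subset' (show (0 : ℝ) < 1 by norm_num)).1
    (show {x : ℝ | 2 * x * (1 + eta (al x)) - 2 ∈ Metric.ball (0 : ℝ) ε} ∈ 𝓝[<] 1 from hev)
  have hb1 : b < 1 := hb
  -- starting point
  obtain ⟨x1, hx1, hx1b⟩ : ∃ x1 : ℝ, x1 ∈ Ioo (0 : ℝ) 1 ∧ b < x1 := by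
    refine ⟨max b 0 + (1 - max b 0) / 2, ⟨?_, ?_⟩, ?_⟩
    · have := le_max_right b 0
      have h3 : max b 0 < 1 := max_lt hb1 one_pos
      linarith
    · have h3 : max b 0 < 1 := max_lt hb1 one_pos
      linarith
    · have := le_max_left b 0
      have h3 : max b 0 < 1 := max_lt hb1 one_pos
      linarith
  have hsub : ∀ x ∈ Ico x1 1, x ∈ Ioo (0 : ℝ) 1 := fun x hx => ⟨hx1.1.trans_le hx.1, hx.2⟩
  have hbd : ∀ x ∈ Ico x1 1, |2 * x * (1 + eta (al x)) - 2| < ε := by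
    intro x hx
    have := hb2 (show x ∈ Ioo b 1 from ⟨hx1b.trans_le hx.1, hx.2⟩)
    simpa [Real.dist_eq] using this
  -- derivative of `l² - c L`
  have hder : ∀ c : ℝ, ∀ x ∈ Ico x1 1, HasDerivAt (fun x => l2 x + c * Real.log (1 - x))
      ((2 * x * (1 + eta (al x)) - c) / (1 - x)) x := by
    intro c x hx
    refine ((hasDerivAt_l2 (hsub x hx)).add
      ((hasDerivAt_log_one_sub (hsub x hx)).const_mul c)).congr_deriv ?_
    have : 1 - x ≠ 0 := by have := hx.2; linarith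
    field_simp
    ring
  have hcont : ∀ c : ℝ, ContinuousOn (fun x => l2 x + c * Real.log (1 - x)) (Ico x1 1) :=
    fun c x hx => (hder c x hx).continuousAt.continuousWithinAt
  have hanti : AntitoneOn (fun x => l2 x + (2 + ε) * Real.log (1 - x)) (Ico x1 1) := by
    refine antitoneOn_of_deriv_nonpos (convex_Ico x1 1) (hcont _) ?_ ?_
    · intro x hx
      rw [interior_Ico] at hx
      exact (hder _ x ⟨hx.1.le, hx.2⟩).differentiableAt.differentiableWithinAt
    · intro x hx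
      rw [interior_Ico] at hx
      rw [(hder _ x ⟨hx.1.le, hx.2⟩).deriv]
      have h1 := (abs_lt.1 (hbd x ⟨hx.1.le, hx.2⟩)).2
      exact div_nonpos_of_nonpos_of_nonneg (by linarith) (by linarith [hx.2])
  have hmono : MonotoneOn (fun x => l2 x + (2 - ε) * Real.log (1 - x)) (Ico x1 1) := by
    refine monotoneOn_of_deriv_nonneg (convex_Ico x1 1) (hcont _) ?_ ?_
    · intro x hx
      rw [interior_Ico] at hx
      exact (hder _ x ⟨hx.1.le, hx.2⟩).differentiableAt.differentiableWithinAt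
    · intro x hx
      rw [interior_Ico] at hx
      rw [(hder _ x ⟨hx.1.le, hx.2⟩).deriv]
      have h1 := (abs_lt.1 (hbd x ⟨hx.1.le, hx.2⟩)).1
      exact div_nonneg (by linarith) (by linarith [hx.2])
  refine ⟨x1, hx1, |l2 x1 + (2 + ε) * Real.log (1 - x1)| +
    |l2 x1 + (2 - ε) * Real.log (1 - x1)|, ?_⟩
  intro x hx
  have h1 := hanti (show x1 ∈ Ico x1 1 from ⟨le_refl _, hx1.2⟩) hx hx.1
  have h2 := hmono (show x1 ∈ Ico x1 1 from ⟨le_refl _, hx1.2⟩) hx hx.1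
  simp only at h1 h2
  have h3 := le_abs_self (l2 x1 + (2 + ε) * Real.log (1 - x1))
  have h4 := neg_abs_le (l2 x1 + (2 - ε) * Real.log (1 - x1))
  have h5 := abs_nonneg (l2 x1 + (2 + ε) * Real.log (1 - x1))
  have h6 := abs_nonneg (l2 x1 + (2 - ε) * Real.log (1 - x1))
  rw [abs_le]
  constructor <;> linarith

theorem tendsto_l2_ratio :
    Tendsto (fun x => l2 x / -Real.log (1 - x)) (𝓝[<] 1) (𝓝 2) := by
  rw [Metric.tendsto_nhds]
  intro ε hε
  obtain ⟨x1, hx1, C, hC⟩ := l2_asymp (show 0 < ε / 2 by linarith)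
  have h1 := tendsto_neg_log_one_sub.eventually (eventually_gt_atTop (max 1 (2 * C / ε)))
  filter_upwards [h1, Ioo_mem_nhdsLT hx1.2] with x hx2 hx3
  have hL : 0 < -Real.log (1 - x) := lt_of_lt_of_le one_pos ((le_max_left _ _).trans hx2.le)
  have hLC : C < ε / 2 * -Real.log (1 - x) := by
    have := lt_of_le_of_lt (le_max_right _ _) hx2
    rw [div_lt_iff₀ hε] at this
    linarith
  have h2 := hC x ⟨hx3.1.le, hx3.2⟩
  rw [Real.dist_eq]
  have e : l2 x / -Real.log (1 - x) - 2 =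
      (l2 x - 2 * -Real.log (1 - x)) / -Real.log (1 - x) := by
    rw [sub_div, mul_div_assoc, div_self hL.ne', mul_one]
  rw [e, abs_div, abs_of_pos hL, div_lt_iff₀ hL]
  linarith

/-! ### the third cumulant `t` -/

/-- `t = sqrt (k x³)` -/
noncomputable def tt (x : ℝ) : ℝ := √(kk (al x) * x ^ 3)

theorem tt_pos {x : ℝ} (hx : x ∈ Ioo (0 : ℝ) 1) : 0 < tt x :=
  Real.sqrt_pos.2 (mul_pos (kk_pos (al_pos hx)) (pow_pos hx.1 3))

theorem tt_sq {x : ℝ} (hx : x ∈ Ioo (0 : ℝ) 1) : tt x ^ 2 = kk (al x) * x ^ 3 :=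
  Real.sq_sqrt (mul_pos (kk_pos (al_pos hx)) (pow_pos hx.1 3)).le

/-- `t² = (1 - x)² x / (eta (eta + 1))` -/
theorem tt_sq' {x : ℝ} (hx : x ∈ Ioo (0 : ℝ) 1) :
    tt x ^ 2 = (1 - x) ^ 2 * x / (eta (al x) * (eta (al x) + 1)) := by
  rw [tt_sq hx]
  have ha := al_pos hx
  have hH := HH_pos _ ha
  have h2 := x_mul_al hx
  rw [← h2]
  unfold kk
  rw [eta_eq]
  field_simp
  ring

/-- `t = (1 - x) (l² - x) / l` -/
theorem tt_eq {x : ℝ} (hx : x ∈ Ioo (0 : ℝ) 1) : tt x = (1 - x) * (l2 x - x) / √(l2 x) := by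
  have h1 := l2_gt hx
  have h2 : 0 < 1 - x := by linarith [hx.2]
  have h3 : 0 < (1 - x) * (l2 x - x) / √(l2 x) :=
    div_pos (mul_pos h2 (by linarith)) (Real.sqrt_pos.2 (l2_pos hx))
  refine (pow_left_inj₀ (tt_pos hx).le h3.le two_ne_zero).1 ?_
  rw [tt_sq' hx, div_pow, Real.sq_sqrt (l2_pos hx).le]
  have he := eta_pos (al x)
  have hx0 := hx.1.ne'
  unfold l2
  have e1 : x * (1 + 1 / eta (al x)) - x = x / eta (al x) := by ring
  rw [e1]
  field_simp

/-- numerator of the logarithmic derivative of `t` -/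
noncomputable def NN (a : ℝ) : ℝ := a - 2 + HH a * (HH a + a + 1)

theorem NN_eq (a : ℝ) : NN a = 3 * a - JJ a - 1 := by
  unfold NN JJ
  ring

/-- `t' / t = N / (2 (1 - x))` -/
theorem hasDerivAt_tt {x : ℝ} (hx : x ∈ Ioo (0 : ℝ) 1) :
    HasDerivAt tt (tt x * (NN (al x) / (2 * (1 - x)))) x := by
  have ha := al_pos hx
  have hk := kk_pos ha
  have hx3 : 0 < x ^ 3 := pow_pos hx.1 3
  have h1 := (((hasDerivAt_kk ha).comp x (hasDerivAt_al hx)).mul (hasDerivAt_pow 3 x)).sqrt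
    (by
      show kk (al x) * x ^ 3 ≠ 0
      positivity)
  refine h1.congr_deriv ?_
  have e : √((((kk ∘ al : ℝ → ℝ) * fun x : ℝ => x ^ 3 : ℝ → ℝ)) x) = tt x := rfl
  rw [e]
  simp only [Function.comp]
  have ht := tt_pos hx
  have ht2 := tt_sq hx
  rw [div_eq_iff (by positivity)]
  have h3 : tt x * (NN (al x) / (2 * (1 - x))) * (2 * tt x) =
      tt x ^ 2 * (NN (al x) / (1 - x)) := by
    have : 1 - x ≠ 0 := by have := hx.2; linarith
    field_simp
  rw [h3, ht2, NN_eq]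
  have h4 := x_mul_al hx
  have hx0 := hx.1
  have h5 : 1 + al x = 1 / x := one_add_al
  have h6 : al x + 1 = 1 / x := by rw [← one_add_al]; ring
  rw [← h4, h5, h6]
  push_cast
  have hax := ha.ne'
  field_simp
  ring

theorem NN_strictMono : StrictMonoOn NN (Ioi 0) := by
  refine strictMonoOn_of_deriv_pos (convex_Ioi 0) ?_ ?_
  · have h := continuousOn_HH
    unfold NN
    fun_prop
  · intro a ha
    rw [interior_Ioi] at ha
    have ha0 : 0 < a := ha
    have hH := hasDerivAt_HH' ha0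
    have hid := hasDerivAt_id a
    have h : HasDerivAt NN _ a :=
      (hid.sub_const 2).add (hH.mul ((hH.add hid).add_const 1))
    rw [h.deriv]
    have h1 := HH_pos a ha0
    have h2 := ff_pos a ha0
    positivity

theorem NN_pos_of_two_le {a : ℝ} (ha : 2 ≤ a) : 0 < NN a := by
  have h1 := HH_pos a (by linarith)
  unfold NN
  have : 0 < HH a * (HH a + a + 1) := by positivity
  linarith

theorem tendsto_NN_zero : Tendsto NN (𝓝[>] 0) (𝓝 (-2)) := by
  have h2 : Tendsto (fun x : ℝ => x) (𝓝[>] 0) (𝓝 0) := tendsto_nhdsWithin_of_tendsto_nhds tendsto_id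
  have h := (h2.sub_const 2).add (tendsto_HH_zero.mul ((tendsto_HH_zero.add h2).add_const 1))
  have e : (0 : ℝ) - 2 + 0 * (0 + 0 + 1) = -2 := by norm_num
  rw [e] at h
  exact h

/-- the zero of `N` -/
theorem exists_a0 : ∃ a0 : ℝ, 0 < a0 ∧ a0 < 2 ∧ NN a0 = 0 ∧ (∀ a, 0 < a → a < a0 → NN a < 0) ∧
    (∀ a, a0 < a → 0 < NN a) := by
  have h1 := tendsto_NN_zero.eventually (gt_mem_nhds (show (-2 : ℝ) < 0 by norm_num))
  obtain ⟨b, hb, hb2⟩ := (h1.and (Ioo_mem_nhdsGT (show (0 : ℝ) < 1 by norm_num))).exists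
  have h2 := NN_pos_of_two_le (le_refl (2 : ℝ))
  have hc : ContinuousOn NN (Icc b 2) := by
    have h := continuousOn_HH.mono (fun x (hx : x ∈ Icc b 2) => lt_of_lt_of_le hb2.1 hx.1)
    unfold NN
    fun_prop
  obtain ⟨a0, ha0, h0⟩ := intermediate_value_Icc (show b ≤ 2 by linarith [hb2.2]) hc
    (show (0 : ℝ) ∈ Icc (NN b) (NN 2) from ⟨hb.le, h2.le⟩)
  have ha0p : 0 < a0 := lt_of_lt_of_le hb2.1 ha0.1
  refine ⟨a0, ha0p, ?_, h0, ?_, ?_⟩
  · rcases ha0.2.lt_or_eq with h | h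
    · exact h
    · rw [h] at h0
      linarith
  · intro a ha hlt
    have := NN_strictMono (show a ∈ Ioi (0 : ℝ) from ha) (show a0 ∈ Ioi (0 : ℝ) from ha0p) hlt
    linarith
  · intro a hlt
    have := NN_strictMono (show a0 ∈ Ioi (0 : ℝ) from ha0p)
      (show a ∈ Ioi (0 : ℝ) from ha0p.trans hlt) hlt
    linarith

theorem al_lt_iff {x y : ℝ} (hx : x ∈ Ioo (0 : ℝ) 1) (hy : y ∈ Ioo (0 : ℝ) 1) :
    al x < al y ↔ y < x := by
  unfold al
  rw [sub_lt_sub_iff_right, one_div_lt_one_div hx.1 hy.1]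

/-- `t'` has exactly one zero `x0`; `t` increases before and decreases after it -/
theorem exists_x0 : ∃ x0 ∈ Ioo (1 / 3 : ℝ) 1, (∀ x ∈ Ioo (0 : ℝ) 1, x < x0 → 0 < NN (al x)) ∧
    NN (al x0) = 0 ∧ (∀ x ∈ Ioo (0 : ℝ) 1, x0 < x → NN (al x) < 0) := by
  obtain ⟨a0, h1, h2, h3, h4, h5⟩ := exists_a0
  obtain ⟨h6, h7⟩ := al_inv h1
  refine ⟨1 / (1 + a0), ⟨?_, h7.2⟩, ?_, by rw [h6]; exact h3, ?_⟩
  · exact one_div_lt_one_div_of_lt (by linarith) (by linarith)
  · intro x hx hlt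
    refine h5 _ ?_
    rw [← h6]
    exact (al_lt_iff h7 hx).2 hlt
  · intro x hx hlt
    refine h4 _ (al_pos hx) ?_
    rw [← h6]
    exact (al_lt_iff hx h7).2 hlt

/-- `x |N| ≤ 4` -/
theorem abs_NN_le {x : ℝ} (hx : x ∈ Ioo (0 : ℝ) 1) : x * |NN (al x)| ≤ 4 := by
  have ha := al_pos hx
  have h0 := HH_pos _ ha
  have h2 := HH_lt_two _ ha
  have h3 := x_mul_one_add_al hx
  have h4 := x_mul_al hx
  have hx0 := hx.1
  rw [← abs_of_pos hx.1, ← abs_mul, abs_of_pos hx.1, abs_le]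
  obtain ⟨a, hae⟩ : ∃ a, a = al x := ⟨_, rfl⟩
  rw [← hae] at ha h0 h2 h3 h4 ⊢
  have hle : NN a ≤ 3 * a + 4 := by
    unfold NN
    have : HH a * (HH a + a + 1) ≤ 2 * (2 + a + 1) := by
      have hH2 : HH a ≤ 2 := by linarith
      gcongr
    linarith
  have hge : -2 ≤ NN a := by
    unfold NN
    have : 0 < HH a * (HH a + a + 1) := by positivity
    linarith
  constructor
  · have := mul_le_mul_of_nonneg_left hge hx0.le
    linarith [hx.2]
  · have := mul_le_mul_of_nonneg_left hle hx0.le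
    have h5 : x * (3 * a + 4) = 3 + x := by linear_combination 3 * h3 
    linarith [hx.2]

/-! ### bounds of `k` -/

/-- `k ≤ 4 (1 - x)` -/
theorem kk_le {x : ℝ} (hx : x ∈ Ioo (0 : ℝ) 1) : kk (al x) ≤ 4 * (1 - x) := by
  have ha := al_pos hx
  have h0 := HH_pos _ ha
  rw [one_sub_eq hx]
  unfold kk
  rw [div_le_iff₀ (by positivity)]
  obtain ⟨a, hae⟩ : ∃ a, a = al x := ⟨_, rfl⟩
  rw [← hae] at ha h0 ⊢
  have h1 : a * (a + 2) ≤ (a + HH a) * (a + HH a + 2) := by nlinarith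
  have h2 : 4 * a ^ 2 = 4 * (a / (1 + a)) * (a * (1 + a)) := by
    field_simp
  rw [h2]
  refine mul_le_mul_of_nonneg_left ?_ (by positivity)
  nlinarith

/-- `k ≥ (1 - x)² / 2` -/
theorem kk_ge {x : ℝ} (hx : x ∈ Ioo (0 : ℝ) 1) : 1 / 2 * (1 - x) ^ 2 ≤ kk (al x) := by
  have := sharp_F2 x hx
  rwa [sharp_cube hx] at this

/-- `k ≤ (1 - x)² (l² / x³)`, the logarithmic bound near `x = 1` -/
theorem tt_sq_le {x : ℝ} (hx : x ∈ Ioo (0 : ℝ) 1) : tt x ^ 2 ≤ (1 - x) ^ 2 * (l2 x - x) := by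
  rw [tt_sq' hx]
  have he := eta_pos (al x)
  have hx0 := hx.1
  have e1 : l2 x - x = x / eta (al x) := by
    unfold l2
    ring
  rw [e1, div_le_iff₀ (by positivity)]
  have e2 : (1 - x) ^ 2 * (x / eta (al x)) * (eta (al x) * (eta (al x) + 1)) =
      (1 - x) ^ 2 * x * (eta (al x) + 1) := by
    field_simp
  rw [e2]
  have : 0 ≤ (1 - x) ^ 2 * x := by positivity
  nlinarith

theorem tt_le {x : ℝ} (hx : x ∈ Ioo (0 : ℝ) 1) :
    tt x ≤ 2 * (1 - x) * √(-Real.log (1 - x)) := by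
  have h1 : 0 < 1 - x := by linarith [hx.2]
  have h2 : 0 ≤ -Real.log (1 - x) := by
    have := Real.log_nonpos h1.le (by linarith [hx.1])
    linarith
  refine (pow_le_pow_iff_left₀ (tt_pos hx).le (by positivity) two_ne_zero).1 ?_
  rw [mul_pow, Real.sq_sqrt h2]
  refine (tt_sq_le hx).trans ?_
  have h3 := l2_le hx
  have h4 : l2 x - x ≤ 4 * -Real.log (1 - x) := by linarith [hx.1]
  calc (1 - x) ^ 2 * (l2 x - x) ≤ (1 - x) ^ 2 * (4 * -Real.log (1 - x)) :=
        mul_le_mul_of_nonneg_left h4 (by positivity)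
    _ = (2 * (1 - x)) ^ 2 * -Real.log (1 - x) := by ring

end Vale.Agent.P254.H233
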