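import Vale.Agent.P254.H233.One

/-!
P254 (helper233): the profiles `x ↦ k(x)^α (1-x)^β x^γ` for arbitrary real exponents, `k` the squared
skewness of the half line truncated Gaussian of variance `x`.
-/

namespace Vale.Agent.P254.H233

open Real Set Filter Topology MeasureTheory
open Vale.Agent.P254.H876

/-- `k` as a function of `x` -/
noncomputable def kx (x : ℝ) : ℝ := kk (al x)

theorem kx_pos {x : ℝ} (hx : x ∈ Ioo (0 : ℝ) 1) : 0 < kx x := kk_pos (al_pos hx)

/-- `(1 - x) k' = -(J + 1) k` -/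
theorem hasDerivAt_kx {x : ℝ} (hx : x ∈ Ioo (0 : ℝ) 1) :
    HasDerivAt kx (kx x * (-(JJ (al x) + 1) / (1 - x))) x := by
  have ha := al_pos hx
  have h1 := (hasDerivAt_kk ha).comp x (hasDerivAt_al hx)
  refine h1.congr_deriv ?_
  have h4 := x_mul_al hx
  have hx0 := hx.1
  have h5 : 1 + al x = 1 / x := one_add_al
  have h6 : al x + 1 = 1 / x := by rw [← one_add_al]; ring
  unfold kx
  rw [← h4, h5, h6]
  have hax := ha.ne'
  field_simp

/-- the function `k^α (1-x)^β x^γ` -/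
noncomputable def pwf (al' be ga : ℝ) (x : ℝ) : ℝ := kx x ^ al' * (1 - x) ^ be * x ^ ga

/-- its logarithmic derivative -/
noncomputable def pwl (al' be ga : ℝ) (x : ℝ) : ℝ :=
  -(al' * (JJ (al x) + 1) + be) / (1 - x) + ga / x

/-- the derivative of the logarithmic derivative -/
noncomputable def pwl' (al' be ga : ℝ) (x : ℝ) : ℝ :=
  al' * JJ' (al x) * (1 + al x) ^ 2 / (1 - x)
    - (al' * (JJ (al x) + 1) + be) / (1 - x) ^ 2 - ga / x ^ 2

theorem pwf_pos {al' be ga x : ℝ} (hx : x ∈ Ioo (0 : ℝ) 1) : 0 < pwf al' be ga x := by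
  have h1 := kx_pos hx
  have h2 : 0 < 1 - x := by linarith [hx.2]
  exact mul_pos (mul_pos (Real.rpow_pos_of_pos h1 _) (Real.rpow_pos_of_pos h2 _))
    (Real.rpow_pos_of_pos hx.1 _)

theorem hasDerivAt_pwf {al' be ga x : ℝ} (hx : x ∈ Ioo (0 : ℝ) 1) :
    HasDerivAt (pwf al' be ga) (pwf al' be ga x * pwl al' be ga x) x := by
  have h1 := kx_pos hx
  have h2 : 0 < 1 - x := by linarith [hx.2]
  have hx0 := hx.1
  have hk := (hasDerivAt_kx hx).rpow_const (p := al') (Or.inl h1.ne')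
  have hs : HasDerivAt (fun x : ℝ => 1 - x) (-1) x := by
    simpa using (hasDerivAt_id x).const_sub 1
  have h3 := hs.rpow_const (p := be) (Or.inl h2.ne')
  have h4 := (hasDerivAt_id x).rpow_const (p := ga) (Or.inl hx0.ne')
  have h := (hk.mul h3).mul h4
  refine h.congr_deriv ?_
  simp only [id_eq, Pi.mul_apply]
  have e1 : kx x ^ (al' - 1) = kx x ^ al' / kx x := by
    rw [Real.rpow_sub h1, Real.rpow_one]
  have e2 : (1 - x) ^ (be - 1) = (1 - x) ^ be / (1 - x) := by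
    rw [Real.rpow_sub h2, Real.rpow_one]
  have e3 : x ^ (ga - 1) = x ^ ga / x := by
    rw [Real.rpow_sub hx0, Real.rpow_one]
  rw [e1, e2, e3]
  unfold pwf pwl
  field_simp
  ring

theorem hasDerivAt_pwl {al' be ga x : ℝ} (hx : x ∈ Ioo (0 : ℝ) 1) :
    HasDerivAt (pwl al' be ga) (pwl' al' be ga x) x := by
  have h2 : 1 - x ≠ 0 := by have := hx.2; linarith
  have hx0 := hx.1.ne'
  have hJ : HasDerivAt JJ (JJ' (al x)) (al x) := hasDerivAt_JJ (al_pos hx)
  have h1 := hJ.comp x (hasDerivAt_al hx)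
  have hs : HasDerivAt (fun x : ℝ => 1 - x) (-1) x := by
    simpa using (hasDerivAt_id x).const_sub 1
  have h3 := (((((h1.add_const 1).const_mul al').add_const be).neg).div hs h2).add
    ((hasDerivAt_const x ga).div (hasDerivAt_id x) hx0)
  refine h3.congr_deriv ?_
  simp only [id_eq, Function.comp, Pi.neg_apply]
  unfold pwl'
  field_simp
  ring

theorem continuousOn_kx : ContinuousOn kx (Ioo 0 1) :=
  fun _ hx => (hasDerivAt_kx hx).continuousAt.continuousWithinAt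

theorem continuousOn_pwf (al' be ga : ℝ) : ContinuousOn (pwf al' be ga) (Ioo 0 1) :=
  fun _ hx => (hasDerivAt_pwf hx).continuousAt.continuousWithinAt

theorem continuousOn_pwl (al' be ga : ℝ) : ContinuousOn (pwl al' be ga) (Ioo 0 1) :=
  fun _ hx => (hasDerivAt_pwl hx).continuousAt.continuousWithinAt

theorem continuousOn_pwl' (al' be ga : ℝ) : ContinuousOn (pwl' al' be ga) (Ioo 0 1) := by
  have h1 : ContinuousOn (fun x => JJ' (al x)) (Ioo 0 1) :=
    continuousOn_JJ'.comp continuousOn_al mapsTo_al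
  have h2 : ContinuousOn (fun x => JJ (al x)) (Ioo 0 1) :=
    continuousOn_JJ.comp continuousOn_al mapsTo_al
  have h3 := continuousOn_al
  have h4 : ∀ x ∈ Ioo (0 : ℝ) 1, (1 - x) ≠ 0 := fun x hx => by have := hx.2; linarith
  have h5 : ∀ x ∈ Ioo (0 : ℝ) 1, x ≠ 0 := fun x hx => hx.1.ne'
  unfold pwl'
  refine ContinuousOn.sub (ContinuousOn.sub (ContinuousOn.div ?_ ?_ h4)
    (ContinuousOn.div ?_ ?_ fun x hx => pow_ne_zero 2 (h4 x hx)))
    (ContinuousOn.div ?_ ?_ fun x hx => pow_ne_zero 2 (h5 x hx)) <;> fun_prop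

/-- the profile `k^α (1-x)^β x^γ` -/
noncomputable def pw (al' be ga : ℝ) : L.Profile where
  p := pwf al' be ga
  p1 x := pwf al' be ga x * pwl al' be ga x
  p2 x := pwf al' be ga x * pwl al' be ga x * pwl al' be ga x
    + pwf al' be ga x * pwl' al' be ga x
  pos _ hx := pwf_pos hx
  d1 _ hx := hasDerivAt_pwf hx
  d2 _ hx := (hasDerivAt_pwf hx).mul (hasDerivAt_pwl hx)
  c2 := (((continuousOn_pwf al' be ga).mul (continuousOn_pwl al' be ga)).mul
    (continuousOn_pwl al' be ga)).add ((continuousOn_pwf al' be ga).mul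
      (continuousOn_pwl' al' be ga))

/-- product rule for the family -/
theorem pwf_mul {a1 b1 c1 a2 b2 c2 x : ℝ} (hx : x ∈ Ioo (0 : ℝ) 1) :
    pwf a1 b1 c1 x * pwf a2 b2 c2 x = pwf (a1 + a2) (b1 + b2) (c1 + c2) x := by
  have h1 := kx_pos hx
  have h2 : 0 < 1 - x := by linarith [hx.2]
  unfold pwf
  rw [Real.rpow_add h1, Real.rpow_add h2, Real.rpow_add hx.1]
  ring

theorem pwf_zero {x : ℝ} : pwf 0 0 0 x = 1 := by
  unfold pwf
  simp

theorem pwf_one_zero_zero {x : ℝ} : pwf 1 0 0 x = kx x := by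
  unfold pwf
  simp

theorem pwf_zero_one_zero {x : ℝ} : pwf 0 1 0 x = 1 - x := by
  unfold pwf
  simp

theorem pwf_zero_zero_one {x : ℝ} : pwf 0 0 1 x = x := by
  unfold pwf
  simp

/-! ### the candidate `om = √(x (1 - x)) / t` (helper350, helper252)

`r = x om = √((1 - x) / k)`, `q = √(k r) = (k (1 - x))^{1/4}`, profiles `F.p = q`, `G.p = r / x²`. -/

/-- `r = √((1 - x) / k)` -/
noncomputable def rc (x : ℝ) : ℝ := √((1 - x) / kx x)

theorem rc_eq {x : ℝ} (hx : x ∈ Ioo (0 : ℝ) 1) : rc x = pwf (-(1 / 2)) (1 / 2) 0 x := by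
  have h1 := kx_pos hx
  have h2 : 0 < 1 - x := by linarith [hx.2]
  unfold rc pwf
  rw [Real.sqrt_eq_rpow, Real.div_rpow h2.le h1.le, Real.rpow_neg h1.le, Real.rpow_zero, mul_one]
  field_simp

theorem rc_ge {x : ℝ} (hx : x ∈ Ioo (0 : ℝ) 1) : 1 / 2 ≤ rc x := by
  have h1 := kx_pos hx
  have h2 : kx x ≤ 4 * (1 - x) := kk_le hx
  unfold rc
  refine Real.le_sqrt_of_sq_le ?_
  rw [le_div_iff₀ h1]
  linarith

theorem rc_le {x : ℝ} (hx : x ∈ Ioo (0 : ℝ) 1) : rc x ≤ √(2 / (1 - x)) := by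
  have h1 := kx_pos hx
  have h2 : 0 < 1 - x := by linarith [hx.2]
  have h3 : 1 / 2 * (1 - x) ^ 2 ≤ kx x := kk_ge hx
  unfold rc
  apply Real.sqrt_le_sqrt
  rw [div_le_div_iff₀ h1 h2]
  nlinarith

theorem rc_strictMono : StrictMonoOn rc (Ioo 0 1) := by
  have h : StrictMonoOn (pwf (-(1 / 2)) (1 / 2) 0) (Ioo 0 1) := by
    refine strictMonoOn_of_deriv_pos (convex_Ioo 0 1) (continuousOn_pwf _ _ _) ?_
    intro x hx
    rw [interior_Ioo] at hx
    rw [(hasDerivAt_pwf hx).deriv]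
    refine mul_pos (pwf_pos hx) ?_
    have hJ := JJ_pos _ (al_pos hx)
    have h2 : 0 < 1 - x := by linarith [hx.2]
    unfold pwl
    have e : -(-(1 / 2) * (JJ (al x) + 1) + 1 / 2) / (1 - x) + 0 / x =
        JJ (al x) / 2 / (1 - x) := by
      rw [zero_div, add_zero]
      congr 1
      ring
    rw [e]
    positivity
  intro x hx y hy hxy
  rw [rc_eq hx, rc_eq hy]
  exact h hx hy hxy

end Vale.Agent.P254.H233
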